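import Mathlib

namespace Vale.Agent.P205

open scoped ContDiff

theorem prim_deriv {f : ℝ → ℝ} (hf : Continuous f) (x : ℝ) :
    HasDerivAt (fun u => ∫ t in (0 : ℝ)..u, f t) (f x) x :=
  (hf.integral_hasStrictDerivAt 0 x).hasDerivAt

theorem prim_smooth {f : ℝ → ℝ} (hf : ContDiff ℝ ∞ f) :
    ContDiff ℝ ∞ (fun u => ∫ t in (0 : ℝ)..u, f t) := by
  rw [contDiff_infty_iff_deriv]
  refine ⟨fun x => (prim_deriv hf.continuous x).differentiableAt, ?_⟩
  have : deriv (fun u => ∫ t in (0 : ℝ)..u, f t) = f :=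
    funext fun x => (prim_deriv hf.continuous x).deriv
  rwa [this]

theorem prim_add_one {f : ℝ → ℝ} (hf : Continuous f) (hp : Function.Periodic f 1) (x : ℝ) :
    ∫ t in (0 : ℝ)..(x + 1), f t = (∫ t in (0 : ℝ)..x, f t) + ∫ t in (0 : ℝ)..1, f t := by
  have := hp.intervalIntegral_add_eq_add 0 x (fun a b => hf.intervalIntegrable a b)
  simpa using this

theorem per_bdd {f : ℝ → ℝ} (hf : Continuous f) (hp : Function.Periodic f 1) :
    ∃ C, ∀ x, f x ≤ C := by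
  obtain ⟨C, hC⟩ := (hp.isBounded_of_continuous one_ne_zero hf).bddAbove
  exact ⟨C, fun x => hC ⟨x, rfl⟩⟩

/-- a map into two planes given in polar form -/
noncomputable def pol (r a s b : ℝ × ℝ → ℝ) (p : ℝ × ℝ) : EuclideanSpace ℝ (Fin 4) :=
  WithLp.toLp 2 ![r p * Real.cos (a p), r p * Real.sin (a p), s p * Real.cos (b p),
    s p * Real.sin (b p)]

theorem pol_smooth {r a s b : ℝ × ℝ → ℝ} (hr : ContDiff ℝ ∞ r) (ha : ContDiff ℝ ∞ a)
    (hs : ContDiff ℝ ∞ s) (hb : ContDiff ℝ ∞ b) : ContDiff ℝ ∞ (pol r a s b) := by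
  rw [contDiff_euclidean]
  intro i
  fin_cases i
  · exact hr.mul ha.cos
  · exact hr.mul ha.sin
  · exact hs.mul hb.cos
  · exact hs.mul hb.sin

theorem pol_inner {r a s b : ℝ × ℝ → ℝ} (hsm : ContDiff ℝ ∞ (pol r a s b)) {p : ℝ × ℝ}
    {r' a' s' b' : ℝ × ℝ →L[ℝ] ℝ} (hr : HasFDerivAt r r' p) (ha : HasFDerivAt a a' p)
    (hs : HasFDerivAt s s' p) (hb : HasFDerivAt b b' p) (v w : ℝ × ℝ) :
    inner ℝ (fderiv ℝ (pol r a s b) p v) (fderiv ℝ (pol r a s b) p w) =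
      r' v * r' w + r p ^ 2 * (a' v * a' w) + s' v * s' w + s p ^ 2 * (b' v * b' w) := by
  have hd : HasFDerivAt (pol r a s b) (fderiv ℝ (pol r a s b) p) p :=
    (hsm.differentiable (by simp) p).hasFDerivAt
  have hi : ∀ i : Fin 4, HasFDerivAt (fun q => pol r a s b q i)
      ((EuclideanSpace.proj i : EuclideanSpace ℝ (Fin 4) →L[ℝ] ℝ).comp
        (fderiv ℝ (pol r a s b) p)) p :=
    fun i => (EuclideanSpace.proj i : EuclideanSpace ℝ (Fin 4) →L[ℝ] ℝ).hasFDerivAt.comp p hd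
  have h0 := (hi 0).unique (hr.mul ha.cos)
  have h1 := (hi 1).unique (hr.mul ha.sin)
  have h2 := (hi 2).unique (hs.mul hb.cos)
  have h3 := (hi 3).unique (hs.mul hb.sin)
  have e0 := fun u => congrArg (fun L : ℝ × ℝ →L[ℝ] ℝ => L u) h0
  have e1 := fun u => congrArg (fun L : ℝ × ℝ →L[ℝ] ℝ => L u) h1
  have e2 := fun u => congrArg (fun L : ℝ × ℝ →L[ℝ] ℝ => L u) h2
  have e3 := fun u => congrArg (fun L : ℝ × ℝ →L[ℝ] ℝ => L u) h3
  simp only [ContinuousLinearMap.comp_apply, ContinuousLinearMap.add_apply,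
    ContinuousLinearMap.smul_apply, smul_eq_mul, EuclideanSpace.coe_proj] at e0 e1 e2 e3
  simp only [PiLp.inner_apply, Fin.sum_univ_four, RCLike.inner_apply, conj_trivial, e0, e1, e2, e3]
  linear_combination (r' v * r' w + r p ^ 2 * (a' v * a' w)) * Real.cos_sq_add_sin_sq (a p) +
    (s' v * s' w + s p ^ 2 * (b' v * b' w)) * Real.cos_sq_add_sin_sq (b p)

end Vale.Agent.P205
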