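import Vale.Agent.P205.Cont

namespace Vale.Agent.P205

open Set Filter Topology

theorem gap_cs {u w : ℝ → ℝ} (hu : Continuous u) (hw : Continuous w) (u0 : ∀ x, 0 < u x)
    (w0 : ∀ x, 0 < w x) (hne : u 0 ≠ u (1 / 4)) :
    (∫ x in (0 : ℝ)..1, w x) ^ 2 <
      (∫ x in (0 : ℝ)..1, u x * w x) * ∫ x in (0 : ℝ)..1, w x / u x := by
  have c1 : Continuous fun x => u x * w x := hu.mul hw
  have c2 : Continuous fun x => w x / u x := hw.div hu fun x => (u0 x).ne'
  set A := ∫ x in (0 : ℝ)..1, u x * w x with hA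
  set B := ∫ x in (0 : ℝ)..1, w x / u x with hB
  set W := ∫ x in (0 : ℝ)..1, w x with hW
  have hB0 : 0 < B := intervalIntegral.integral_pos one_pos c2.continuousOn
    (fun x _ => (div_pos (w0 x) (u0 x)).le) ⟨0, ⟨le_rfl, zero_le_one⟩, div_pos (w0 0) (u0 0)⟩
  set m := W / B with hm
  have e : ∀ x, (u x - m) ^ 2 * (w x / u x) =
      u x * w x - 2 * m * w x + m ^ 2 * (w x / u x) := by
    intro x
    have := (u0 x).ne'
    field_simp
    ring
  have hp : 0 < ∫ x in (0 : ℝ)..1, (u x - m) ^ 2 * (w x / u x) := by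
    refine intervalIntegral.integral_pos one_pos (((hu.sub continuous_const).pow 2).mul c2).continuousOn
      (fun x _ => mul_nonneg (sq_nonneg _) (div_pos (w0 x) (u0 x)).le) ?_
    by_cases h : u 0 = m
    · refine ⟨1 / 4, ⟨by norm_num, by norm_num⟩, mul_pos ?_ (div_pos (w0 _) (u0 _))⟩
      exact sq_pos_of_ne_zero (sub_ne_zero.2 fun h' => hne (h.trans h'.symm))
    · exact ⟨0, ⟨le_rfl, zero_le_one⟩,
        mul_pos (sq_pos_of_ne_zero (sub_ne_zero.2 h)) (div_pos (w0 _) (u0 _))⟩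
  simp only [e] at hp
  have c3 : Continuous fun x => 2 * m * w x := continuous_const.mul hw
  have c4 : Continuous fun x => m ^ 2 * (w x / u x) := continuous_const.mul c2
  have c5 : Continuous fun x => u x * w x - 2 * m * w x := c1.sub c3
  rw [intervalIntegral.integral_add (c5.intervalIntegrable _ _) (c4.intervalIntegrable _ _),
    intervalIntegral.integral_sub (c1.intervalIntegrable _ _) (c3.intervalIntegrable _ _),
    intervalIntegral.integral_const_mul, intervalIntegral.integral_const_mul,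
    ← hA, ← hB, ← hW] at hp
  have hmB : m * B = W := div_mul_cancel₀ _ hB0.ne'
  have h3 := mul_pos hp hB0
  have h4 : (A - 2 * m * W + m ^ 2 * B) * B = A * B - W ^ 2 := by
    rw [← hmB]; ring
  linarith

theorem gap0 {D G k : ℝ → ℝ} (h : Dat D G k) {α β s : ℝ} (hs : 0 < s) (h1 : s < α)
    (h2 : β + s < Real.pi / 2) {t : ℝ} (ht : t ∈ Icc α β) :
    (∫ x in (0 : ℝ)..1, √(D x / G x)) ^ 2 < I1 D G k 0 t s * I2 D G k 0 t s := by
  have hm := tt_mem h1 h2 ht (⟨hs.le, le_rfl⟩ : s ∈ Icc 0 s)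
  have hc : Continuous (tt t s) := by unfold tt; fun_prop
  have hcos : ∀ x, Real.cos (tt t s x) ≠ 0 := fun x =>
    (Real.cos_pos_of_mem_Ioo ⟨by linarith [(hm x).1, Real.pi_pos], (hm x).2⟩).ne'
  have hu : Continuous fun x => Real.tan (tt t s x) := by
    simp only [Real.tan_eq_sin_div_cos]
    exact (Real.continuous_sin.comp hc).div (Real.continuous_cos.comp hc) hcos
  have hw : Continuous fun x => √(D x / G x) := (h.cD.div h.cG fun x => (h.G0 x).ne').sqrt
  have e : ∀ x, ww D G k 0 s x = √(D x / G x) := fun x => by simp [ww, rad]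
  simp only [I1, I2, e]
  refine gap_cs hu hw (fun x => Real.tan_pos_of_pos_of_lt_pi_div_two (hm x).1 (hm x).2)
    (fun x => Real.sqrt_pos.2 (div_pos (h.D0 x) (h.G0 x))) (ne_of_lt ?_)
  refine Real.tan_lt_tan_of_lt_of_lt_pi_div_two (by linarith [(hm 0).1, Real.pi_pos])
    (hm _).2 ?_
  have : 2 * Real.pi * (1 / 4) = Real.pi / 2 := by ring
  simp only [tt, this, Real.sin_pi_div_two, mul_zero, Real.sin_zero]
  linarith

theorem gap {D G k : ℝ → ℝ} (h : Dat D G k) {α β s : ℝ} (hαβ : α ≤ β) (hs : 0 < s) (h1 : s < α)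
    (h2 : β + s < Real.pi / 2) :
    ∃ δ > 0, ∃ e > 0, ∀ ε ∈ Icc 0 e, ∀ t ∈ Icc α β,
      (∫ x in (0 : ℝ)..1, √(D x / G x)) ^ 2 + δ ≤ I1 D G k ε t s * I2 D G k ε t s := by
  obtain ⟨c1, c2⟩ := cont_I h h1 h2
  set F : ℝ × ℝ → ℝ := fun z => I1 D G k z.1 z.2 s * I2 D G k z.1 z.2 s with hF
  have hc : ContinuousOn F (univ ×ˢ Icc α β) :=
    (c1.mul c2).comp (f := fun z : ℝ × ℝ => (z.1, z.2, s)) (by fun_prop)
      fun z hz => ⟨mem_univ _, hz.2, hs.le, le_rfl⟩
  have hc0 : ContinuousOn (fun t => F (0, t)) (Icc α β) :=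
    hc.comp (f := fun t : ℝ => ((0 : ℝ), t)) (by fun_prop) fun t ht => ⟨mem_univ _, ht⟩
  obtain ⟨t0, ht0, hmin⟩ := isCompact_Icc.exists_isMinOn (nonempty_Icc.2 hαβ) hc0
  set W := (∫ x in (0 : ℝ)..1, √(D x / G x)) ^ 2 with hW
  have hg : W < F (0, t0) := gap0 h hs h1 h2 ht0
  have hev : ∀ᶠ ε in 𝓝 (0 : ℝ), ∀ t ∈ Icc α β,
      t ∈ Icc α β → W + (F (0, t0) - W) / 2 < F (ε, t) := by
    refine isCompact_Icc.eventually_forall_of_forall_eventually
      (P := fun ε t => t ∈ Icc α β → W + (F (0, t0) - W) / 2 < F (ε, t)) fun t ht => ?_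
    have h3 : F (0, t0) ≤ F (0, t) := hmin ht
    have h4 := (hc (0, t) ⟨mem_univ _, ht⟩).eventually
      (lt_mem_nhds (show W + (F (0, t0) - W) / 2 < F (0, t) by linarith))
    filter_upwards [eventually_nhdsWithin_iff.1 h4] with z hz hz'
    exact hz ⟨mem_univ _, hz'⟩
  obtain ⟨e, he, hb⟩ := Metric.eventually_nhds_iff.1 hev
  refine ⟨(F (0, t0) - W) / 2, by linarith, e / 2, by linarith, fun ε hε t ht => ?_⟩
  refine (hb (y := ε) ?_ t ht ht).le
  rw [Real.dist_eq, sub_zero, abs_of_nonneg hε.1]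
  linarith [hε.2]

end Vale.Agent.P205
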