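import Vale.Agent.P205.Defs

namespace Vale.Agent.P205

open Set

theorem small_bdd {f : ℝ → ℝ} (hc : Continuous f) (hp : Function.Periodic f 1) :
    ∃ C : ℝ, 0 ≤ C ∧ ∀ x, f x ≤ C := by
  obtain ⟨C, hC⟩ := (hp.isBounded_of_continuous one_ne_zero hc).bddAbove
  exact ⟨|C|, abs_nonneg C, fun x => (hC ⟨x, rfl⟩).trans (le_abs_self C)⟩

theorem small {D G k : ℝ → ℝ} (h : Dat D G k) :
    ∃ e > 0, ∀ ε ∈ Icc 0 e, ∀ σ ∈ Icc (0 : ℝ) 1, ∀ x, 0 < rad D G k ε σ x ∧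
      √(D x / G x) / 2 ≤ ww D G k ε σ x ∧ ww D G k ε σ x ≤ √(D x / G x) := by
  obtain ⟨C, hC0, hC⟩ := small_bdd (f := fun x => (k x + G x * (2 * Real.pi) ^ 2) / D x)
    ((h.ck.add (h.cG.mul continuous_const)).div h.cD fun x => (h.D0 x).ne')
    (fun x => by simp only [h.pD x, h.pG x, h.pk x])
  refine ⟨1 / (2 * (C + 1)), by positivity, fun ε hε σ hσ x => ?_⟩
  have hD := h.D0 x
  have hG := h.G0 x
  have hk := h.k0 x
  have h1 : k x + G x * (2 * Real.pi) ^ 2 ≤ C * D x := by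
    have := hC x
    rwa [div_le_iff₀ hD] at this
  have h2 : (σ * (Real.cos (2 * Real.pi * x) * (2 * Real.pi))) ^ 2 ≤ (2 * Real.pi) ^ 2 := by
    rw [mul_pow, mul_pow]
    have a1 : σ ^ 2 ≤ 1 := pow_le_one₀ hσ.1 hσ.2
    have a2 := Real.cos_sq_le_one (2 * Real.pi * x)
    have a3 := sq_nonneg (2 * Real.pi)
    have a4 := sq_nonneg (Real.cos (2 * Real.pi * x))
    calc _ ≤ 1 * (1 * (2 * Real.pi) ^ 2) := by gcongr
      _ = _ := by ring
  obtain ⟨y, hy⟩ : ∃ y, y = k x + G x * (σ * (Real.cos (2 * Real.pi * x) * (2 * Real.pi))) ^ 2 :=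
    ⟨_, rfl⟩
  have hy0 : 0 ≤ y := by rw [hy]; positivity
  have hy1 : y ≤ C * D x := by
    rw [hy]
    linarith [mul_le_mul_of_nonneg_left h2 hG.le]
  have he : ε * (2 * (C + 1)) ≤ 1 := by
    have := hε.2
    rwa [le_div_iff₀ (by positivity)] at this
  have h3 : ε * y ≤ D x / 2 := by
    have a1 := mul_le_mul_of_nonneg_left hy1 hε.1
    have a2 := mul_le_mul_of_nonneg_right he hD.le
    have a3 := mul_nonneg hε.1 hD.le
    nlinarith
  have h4 : 0 ≤ ε * y := mul_nonneg hε.1 hy0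
  have hr : rad D G k ε σ x = D x - ε * y := by rw [rad, hy]
  refine ⟨by rw [hr]; linarith, ?_, ?_⟩
  · rw [ww, hr]
    refine Real.le_sqrt_of_sq_le ?_
    rw [div_pow, Real.sq_sqrt (by positivity), div_right_comm]
    exact div_le_div_of_nonneg_right (by linarith) hG.le
  · rw [ww, hr]
    exact Real.sqrt_le_sqrt (div_le_div_of_nonneg_right (by linarith) hG.le)

end Vale.Agent.P205
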