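import Vale.Agent.P205.Topo
import Vale.Agent.P205.Small
import Vale.Agent.P205.Gap

namespace Vale.Agent.P205

open Set

theorem close_ww {D G k : ℝ → ℝ} (h : Dat D G k) (ε σ : ℝ) : Continuous (ww D G k ε σ) := by
  have h1 := h.cD
  have h2 := h.cG
  have h3 := h.ck
  have h4 : Continuous (rad D G k ε σ) := by
    unfold rad
    fun_prop
  exact (h4.div h2 fun x => (h.G0 x).ne').sqrt

theorem close_tan {t σ : ℝ} (hm : ∀ x, tt t σ x ∈ Ioo 0 (Real.pi / 2)) :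
    Continuous fun x => Real.tan (tt t σ x) := by
  have h1 : Continuous (tt t σ) := by
    unfold tt
    fun_prop
  exact Real.continuousOn_tan_Ioo.comp_continuous h1 fun x =>
    ⟨by linarith [(hm x).1, Real.pi_pos], (hm x).2⟩

theorem close_tt {t σ s : ℝ} (hσ : σ ∈ Icc 0 s) (x : ℝ) : t - s ≤ tt t σ x ∧ tt t σ x ≤ t + s := by
  have h1 := mul_le_mul_of_nonneg_left (Real.sin_le_one (2 * Real.pi * x)) hσ.1
  have h2 := mul_le_mul_of_nonneg_left (Real.neg_one_le_sin (2 * Real.pi * x)) hσ.1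
  unfold tt
  constructor <;> linarith [hσ.2]

theorem close_angles : ∃ α β s : ℝ, 0 < s ∧ s ≤ 1 ∧ α ≤ β ∧ s < α ∧ β + s < Real.pi / 2 ∧
    (∀ y, 0 < y → y ≤ α + s → Real.tan y ≤ 1 / 2) ∧
    ∀ y, β - s ≤ y → y < Real.pi / 2 → 2 ≤ Real.tan y := by
  have ha : 0 < Real.arctan (1 / 2) := Real.arctan_pos.2 (by norm_num)
  have hab : Real.arctan (1 / 2) = Real.pi / 2 - Real.arctan 2 := by
    rw [← Real.arctan_inv_of_pos (by norm_num : (0 : ℝ) < 2), one_div]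
  have hle : Real.arctan (1 / 2) ≤ Real.arctan 2 := Real.arctan_mono (by norm_num)
  have hpi := Real.pi_le_four
  have hp0 := Real.pi_pos
  refine ⟨2 * (Real.arctan (1 / 2) / 3), Real.arctan 2 + Real.arctan (1 / 2) / 3,
    Real.arctan (1 / 2) / 3, by linarith, by linarith, by linarith, by linarith, by linarith,
    fun y h0 h1 => ?_, fun y h0 h1 => ?_⟩
  · have := Real.strictMonoOn_tan.monotoneOn (a := y) ⟨by linarith, by linarith⟩
      (Real.arctan_mem_Ioo (1 / 2)) (by linarith)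
    rwa [Real.tan_arctan] at this
  · have := Real.strictMonoOn_tan.monotoneOn (Real.arctan_mem_Ioo 2) (b := y)
      ⟨by linarith, h1⟩ (by linarith)
    rwa [Real.tan_arctan] at this

theorem close_N {e₁ e₂ W δ : ℝ} (he₁ : 0 < e₁) (he₂ : 0 < e₂) (hW0 : 0 < W) (hδ : 0 < δ) :
    ∃ N : ℕ, (0 : ℝ) < N ∧ 1 / (2 * Real.pi * N) ^ 2 ∈ Icc 0 e₁ ∧
      1 / (2 * Real.pi * N) ^ 2 ∈ Icc 0 e₂ ∧ 1 / (N : ℝ) ≤ W / 2 ∧ 1 / (N : ℝ) ≤ δ / W := by
  obtain ⟨N, hN⟩ := exists_nat_gt (1 / e₁ + 1 / e₂ + 2 / W + W / δ + 1)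
  have p1 : 0 < 1 / e₁ := by positivity
  have p2 : 0 < 1 / e₂ := by positivity
  have p3 : 0 < 2 / W := by positivity
  have p4 : 0 < W / δ := by positivity
  have hN1 : (1 : ℝ) ≤ N := by linarith
  have hN0 : (0 : ℝ) < N := by linarith
  have hε : 1 / (2 * Real.pi * N) ^ 2 ≤ 1 / (N : ℝ) := by
    refine one_div_le_one_div_of_le hN0 ?_
    have a1 : (N : ℝ) ≤ 2 * Real.pi * N :=
      le_mul_of_one_le_left hN0.le (by linarith [Real.two_le_pi])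
    calc (N : ℝ) ≤ 2 * Real.pi * N := a1
      _ ≤ (2 * Real.pi * N) ^ 2 := le_self_pow₀ (hN1.trans a1) two_ne_zero
  have hε0 : 0 ≤ 1 / (2 * Real.pi * N) ^ 2 := by positivity
  have q1 : 1 / (N : ℝ) ≤ e₁ := (one_div_le hN0 he₁).2 (by linarith)
  have q2 : 1 / (N : ℝ) ≤ e₂ := (one_div_le hN0 he₂).2 (by linarith)
  have q3 : 1 / (N : ℝ) ≤ W / 2 := (one_div_le hN0 (by positivity)).2 (by
    rw [one_div_div]; linarith)
  have q4 : 1 / (N : ℝ) ≤ δ / W := (one_div_le hN0 (by positivity)).2 (by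
    rw [one_div_div]; linarith)
  exact ⟨N, hN0, ⟨hε0, hε.trans q1⟩, ⟨hε0, hε.trans q2⟩, q3, q4⟩

theorem close_p {N : ℝ} (hN0 : 0 < N) (c a : ℝ) :
    ∃ p : ℝ, a ≤ p ∧ p ≤ a + 1 / N ∧ ∃ j : ℤ, N * (c - p) = j := by
  have hpN : N * (c - (c - (⌊N * (c - a)⌋ : ℝ) / N)) = (⌊N * (c - a)⌋ : ℝ) := by
    field_simp
    ring
  generalize c - (⌊N * (c - a)⌋ : ℝ) / N = p at hpN
  have hN' : N * (1 / N) = 1 := by field_simp
  refine ⟨p, ?_, ?_, _, hpN⟩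
  · have a1 := Int.floor_le (N * (c - a))
    rw [← hpN] at a1
    have := le_of_mul_le_mul_left a1 hN0
    linarith
  · have a1 := Int.lt_floor_add_one (N * (c - a))
    have a2 : N * (c - a) < N * (c - p + 1 / N) := by
      rw [mul_add, hN', hpN]
      exact a1
    have := lt_of_mul_lt_mul_left a2 hN0.le
    linarith

theorem close_q {N : ℝ} (hN0 : 0 < N) (c a : ℝ) :
    ∃ q : ℝ, a ≤ q ∧ q ≤ a + 1 / N ∧ ∃ j : ℤ, N * (c + q) = j := by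
  obtain ⟨q, h1, h2, j, h3⟩ := close_p hN0 (-c) a
  refine ⟨q, h1, h2, -j, ?_⟩
  push_cast
  rw [← h3]
  ring

theorem close_cw {D G k : ℝ → ℝ} (h : Dat D G k) : Continuous fun x => √(D x / G x) :=
  (h.cD.div h.cG fun x => (h.G0 x).ne').sqrt

theorem close_a {D G k : ℝ → ℝ} (h : Dat D G k) {ε t σ : ℝ}
    (hm : ∀ x, tt t σ x ∈ Ioo 0 (Real.pi / 2)) (h1 : ∀ x, Real.tan (tt t σ x) ≤ 1 / 2)
    (h2 : ∀ x, ww D G k ε σ x ≤ √(D x / G x)) :
    I1 D G k ε t σ ≤ (∫ x in (0 : ℝ)..1, √(D x / G x)) / 2 := by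
  have a1 : I1 D G k ε t σ ≤ ∫ x in (0 : ℝ)..1, 1 / 2 * √(D x / G x) :=
    intervalIntegral.integral_mono_on zero_le_one
      (((close_tan hm).mul (close_ww h ε σ)).intervalIntegrable _ _)
      ((continuous_const.mul (close_cw h)).intervalIntegrable _ _) fun x _ =>
        mul_le_mul (h1 x) (h2 x) (Real.sqrt_nonneg _) (by norm_num)
  rw [intervalIntegral.integral_const_mul] at a1
  linarith

theorem close_b {D G k : ℝ → ℝ} (h : Dat D G k) {ε t σ : ℝ}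
    (hm : ∀ x, tt t σ x ∈ Ioo 0 (Real.pi / 2)) (h1 : ∀ x, 2 ≤ Real.tan (tt t σ x))
    (h2 : ∀ x, √(D x / G x) / 2 ≤ ww D G k ε σ x) :
    ∫ x in (0 : ℝ)..1, √(D x / G x) ≤ I1 D G k ε t σ :=
  intervalIntegral.integral_mono_on zero_le_one ((close_cw h).intervalIntegrable _ _)
    (((close_tan hm).mul (close_ww h ε σ)).intervalIntegrable _ _) fun x _ => by
      have b0 : 0 ≤ ww D G k ε σ x := Real.sqrt_nonneg _
      have b1 := mul_le_mul_of_nonneg_right (h1 x) b0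
      have b2 := h2 x
      linarith

theorem close_c {D G k : ℝ → ℝ} (h : Dat D G k) {ε t : ℝ} (ht0 : 0 < Real.tan t)
    (h2 : ∀ x, ww D G k ε 0 x ≤ √(D x / G x)) :
    I2 D G k ε t 0 * I1 D G k ε t 0 ≤ (∫ x in (0 : ℝ)..1, √(D x / G x)) ^ 2 := by
  have a0 : ∀ x, tt t 0 x = t := fun x => by simp [tt]
  have a1 : 0 ≤ ∫ x in (0 : ℝ)..1, ww D G k ε 0 x :=
    intervalIntegral.integral_nonneg zero_le_one fun x _ => Real.sqrt_nonneg _
  have a2 : ∫ x in (0 : ℝ)..1, ww D G k ε 0 x ≤ ∫ x in (0 : ℝ)..1, √(D x / G x) :=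
    intervalIntegral.integral_mono_on zero_le_one
      ((close_ww h ε 0).intervalIntegrable _ _) ((close_cw h).intervalIntegrable _ _)
      fun x _ => h2 x
  simp only [I1, I2, a0, intervalIntegral.integral_const_mul, intervalIntegral.integral_div]
  generalize ∫ x in (0 : ℝ)..1, ww D G k ε 0 x = V at a1 a2 ⊢
  have a3 : V / Real.tan t * (Real.tan t * V) = V ^ 2 := by
    field_simp
  rw [a3]
  exact pow_le_pow_left₀ a1 a2 2

theorem close_cont {F : ℝ → ℝ → ℝ → ℝ} {A B : Set ℝ} (ε : ℝ)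
    (h : ContinuousOn (fun z : ℝ × ℝ × ℝ => F z.1 z.2.1 z.2.2) (univ ×ˢ A ×ˢ B)) :
    ContinuousOn (fun z : ℝ × ℝ => F ε z.1 z.2) (A ×ˢ B) :=
  h.comp (f := fun z : ℝ × ℝ => ((ε, z) : ℝ × ℝ × ℝ))
    (continuous_const.prodMk continuous_id).continuousOn fun _ hz => ⟨trivial, hz⟩

theorem close {D G k : ℝ → ℝ} (h : Dat D G k) (c : ℝ) :
    ∃ N : ℕ, 0 < N ∧ ∃ t σ : ℝ, (∀ x, tt t σ x ∈ Ioo 0 (Real.pi / 2)) ∧
      (∀ x, 0 < rad D G k (1 / (2 * Real.pi * N) ^ 2) σ x) ∧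
      (∃ j : ℤ, N * (c - I1 D G k (1 / (2 * Real.pi * N) ^ 2) t σ) = j) ∧
      ∃ j : ℤ, N * (c + I2 D G k (1 / (2 * Real.pi * N) ^ 2) t σ) = j := by
  obtain ⟨α, β, s, hs0, hs1, hαβ, hsα, hβs, htα, htβ⟩ := close_angles
  obtain ⟨e₁, he₁, hsm⟩ := small h
  obtain ⟨δ, hδ, e₂, he₂, hgap⟩ := gap h hαβ hs0 hsα hβs
  have hW0 : 0 < ∫ x in (0 : ℝ)..1, √(D x / G x) :=
    intervalIntegral.intervalIntegral_pos_of_pos ((close_cw h).intervalIntegrable _ _)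
      (fun x => Real.sqrt_pos.2 (div_pos (h.D0 x) (h.G0 x))) zero_lt_one
  obtain ⟨N, hN0, q1, q2, q3, q4⟩ := close_N he₁ he₂ hW0 hδ
  refine ⟨N, by exact_mod_cast hN0, ?_⟩
  generalize 1 / (2 * Real.pi * N) ^ 2 = ε at q1 q2 ⊢
  have hsm' := fun σ (hσ : σ ∈ Icc 0 s) => hsm ε q1 σ ⟨hσ.1, hσ.2.trans hs1⟩
  have ha : ∀ σ ∈ Icc 0 s, I1 D G k ε α σ ≤ (∫ x in (0 : ℝ)..1, √(D x / G x)) / 2 :=
    fun σ hσ => close_a h (tt_mem hsα hβs (left_mem_Icc.2 hαβ) hσ)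
      (fun x => htα _ (tt_mem hsα hβs (left_mem_Icc.2 hαβ) hσ x).1 (close_tt hσ x).2)
      fun x => (hsm' σ hσ x).2.2
  have hb : ∀ σ ∈ Icc 0 s, ∫ x in (0 : ℝ)..1, √(D x / G x) ≤ I1 D G k ε β σ :=
    fun σ hσ => close_b h (tt_mem hsα hβs (right_mem_Icc.2 hαβ) hσ)
      (fun x => htβ _ (close_tt hσ x).1 (tt_mem hsα hβs (right_mem_Icc.2 hαβ) hσ x).2)
      fun x => (hsm' σ hσ x).2.1
  have hc : ∀ t ∈ Icc α β,
      I2 D G k ε t 0 * I1 D G k ε t 0 ≤ (∫ x in (0 : ℝ)..1, √(D x / G x)) ^ 2 :=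
    fun t ht => close_c h
      (Real.tan_pos_of_pos_of_lt_pi_div_two (by linarith [ht.1]) (by linarith [ht.2]))
      fun x => (hsm' 0 (left_mem_Icc.2 hs0.le) x).2.2
  have hd := hgap ε q2
  generalize ∫ x in (0 : ℝ)..1, √(D x / G x) = W at hW0 q3 q4 ha hb hc hd
  obtain ⟨p, hp1, hp2, hpN⟩ := close_p hN0 c (W / 2)
  obtain ⟨q, hq1, hq2, hqN⟩ := close_q hN0 c (W ^ 2 / p)
  have hp0 : 0 < p := by linarith
  have hp3 : p ≤ W := by linarith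
  obtain ⟨c1, c2⟩ := cont_I h hsα hβs
  have h0 : ∀ t ∈ Icc α β, I1 D G k ε t 0 = p → I2 D G k ε t 0 ≤ q := by
    intro t ht he
    have a1 := hc t ht
    rw [he, ← le_div_iff₀ hp0] at a1
    exact a1.trans hq1
  have h1 : ∀ t ∈ Icc α β, I1 D G k ε t s = p → q ≤ I2 D G k ε t s := by
    intro t ht he
    have a1 := hd t ht
    rw [he, mul_comm, ← div_le_iff₀ hp0, add_div] at a1
    have a2 : δ / W ≤ δ / p := div_le_div_of_nonneg_left hδ.le hp0 hp3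
    linarith
  obtain ⟨t, ht, σ, hσ, e1, e2⟩ := topo (f := I1 D G k ε) (g := I2 D G k ε) (p := p) (q := q)
    hαβ hs0.le (close_cont (F := I1 D G k) ε c1) (close_cont (F := I2 D G k) ε c2)
    (fun σ hσ => mono_I h hsα hβs hσ fun x => (hsm' σ hσ x).1)
    (fun σ hσ => (ha σ hσ).trans hp1) (fun σ hσ => hp3.trans (hb σ hσ)) h0 h1
  refine ⟨t, σ, tt_mem hsα hβs ht hσ, fun x => (hsm' σ hσ x).1, ?_, ?_⟩
  · rw [e1]
    exact hpN
  · rw [e2]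
    exact hqN

end Vale.Agent.P205
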