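import Vale.Agent.P205.Defs

namespace Vale.Agent.P205

open Set

theorem tt_mem {α β s t σ : ℝ} (h1 : s < α) (h2 : β + s < Real.pi / 2) (ht : t ∈ Icc α β)
    (hσ : σ ∈ Icc 0 s) (x : ℝ) : tt t σ x ∈ Ioo 0 (Real.pi / 2) := by
  have a1 := Real.neg_one_le_sin (2 * Real.pi * x)
  have a2 := Real.sin_le_one (2 * Real.pi * x)
  have a3 := mul_le_mul_of_nonneg_left a1 hσ.1
  have a4 := mul_le_mul_of_nonneg_left a2 hσ.1
  unfold tt
  constructor
  · linarith [ht.1, hσ.2]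
  · linarith [ht.2, hσ.2]

theorem Cont_tan {X : Type} [TopologicalSpace X] {f : X → ℝ} (hf : Continuous f)
    (h : ∀ x, f x ∈ Ioo 0 (Real.pi / 2)) : Continuous fun x => Real.tan (f x) := by
  simp only [Real.tan_eq_sin_div_cos]
  refine (Real.continuous_sin.comp hf).div (Real.continuous_cos.comp hf) fun x => ?_
  exact (Real.cos_pos_of_mem_Ioo ⟨by linarith [(h x).1, Real.pi_pos], (h x).2⟩).ne'

theorem Cont_ww {D G k : ℝ → ℝ} (h : Dat D G k) {X : Type} [TopologicalSpace X]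
    {e σ y : X → ℝ} (he : Continuous e) (hσ : Continuous σ) (hy : Continuous y) :
    Continuous fun x => ww D G k (e x) (σ x) (y x) := by
  have hD := h.cD
  have hG := h.cG
  have hk := h.ck
  unfold ww rad
  refine Continuous.sqrt (Continuous.div (by fun_prop) (by fun_prop) fun x => (h.G0 _).ne')

theorem Cont_tt {X : Type} [TopologicalSpace X] {t σ y : X → ℝ} (ht : Continuous t)
    (hσ : Continuous σ) (hy : Continuous y) : Continuous fun x => tt (t x) (σ x) (y x) := by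
  unfold tt
  fun_prop

theorem cont_I {D G k : ℝ → ℝ} (h : Dat D G k) {α β s : ℝ} (h1 : s < α)
    (h2 : β + s < Real.pi / 2) :
    ContinuousOn (fun z : ℝ × ℝ × ℝ => I1 D G k z.1 z.2.1 z.2.2) (univ ×ˢ Icc α β ×ˢ Icc 0 s) ∧
    ContinuousOn (fun z : ℝ × ℝ × ℝ => I2 D G k z.1 z.2.1 z.2.2) (univ ×ˢ Icc α β ×ˢ Icc 0 s) := by
  have hm : ∀ q : ((univ : Set ℝ) ×ˢ Icc α β ×ˢ Icc 0 s : Set (ℝ × ℝ × ℝ)) × ℝ,
      tt q.1.1.2.1 q.1.1.2.2 q.2 ∈ Ioo 0 (Real.pi / 2) :=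
    fun q => tt_mem h1 h2 q.1.2.2.1 q.1.2.2.2 q.2
  have hT : Continuous fun q : ((univ : Set ℝ) ×ˢ Icc α β ×ˢ Icc 0 s : Set (ℝ × ℝ × ℝ)) × ℝ =>
      Real.tan (tt q.1.1.2.1 q.1.1.2.2 q.2) :=
    Cont_tan (Cont_tt (by fun_prop) (by fun_prop) (by fun_prop)) hm
  have hW : Continuous fun q : ((univ : Set ℝ) ×ˢ Icc α β ×ˢ Icc 0 s : Set (ℝ × ℝ × ℝ)) × ℝ =>
      ww D G k q.1.1.1 q.1.1.2.2 q.2 :=
    Cont_ww h (by fun_prop) (by fun_prop) (by fun_prop)
  constructor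
  · rw [continuousOn_iff_continuous_restrict]
    exact intervalIntegral.continuous_parametric_intervalIntegral_of_continuous'
      (f := fun (z : ((univ : Set ℝ) ×ˢ Icc α β ×ˢ Icc 0 s : Set (ℝ × ℝ × ℝ))) (x : ℝ) =>
        Real.tan (tt z.1.2.1 z.1.2.2 x) * ww D G k z.1.1 z.1.2.2 x) (hT.mul hW) 0 1
  · rw [continuousOn_iff_continuous_restrict]
    exact intervalIntegral.continuous_parametric_intervalIntegral_of_continuous'
      (f := fun (z : ((univ : Set ℝ) ×ˢ Icc α β ×ˢ Icc 0 s : Set (ℝ × ℝ × ℝ))) (x : ℝ) =>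
        ww D G k z.1.1 z.1.2.2 x / Real.tan (tt z.1.2.1 z.1.2.2 x))
      (hW.div hT fun q => (Real.tan_pos_of_pos_of_lt_pi_div_two (hm q).1 (hm q).2).ne') 0 1

theorem mono_I {D G k : ℝ → ℝ} (h : Dat D G k) {α β s ε σ : ℝ} (h1 : s < α)
    (h2 : β + s < Real.pi / 2) (hσ : σ ∈ Icc 0 s) (hr : ∀ x, 0 < rad D G k ε σ x) :
    StrictMonoOn (fun t => I1 D G k ε t σ) (Icc α β) := by
  intro t ht t' ht' hlt
  have hW : Continuous fun x => ww D G k ε σ x :=
    Cont_ww h continuous_const continuous_const continuous_id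
  have hT : ∀ u ∈ Icc α β, Continuous fun x => Real.tan (tt u σ x) := fun u hu =>
    Cont_tan (Cont_tt continuous_const continuous_const continuous_id) (tt_mem h1 h2 hu hσ)
  have hp : ∀ x, Real.tan (tt t σ x) * ww D G k ε σ x < Real.tan (tt t' σ x) * ww D G k ε σ x := by
    intro x
    have a1 := tt_mem h1 h2 ht hσ x
    have a2 := tt_mem h1 h2 ht' hσ x
    refine mul_lt_mul_of_pos_right (Real.tan_lt_tan_of_lt_of_lt_pi_div_two
      (by linarith [a1.1, Real.pi_pos]) a2.2 (by unfold tt; linarith)) ?_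
    exact Real.sqrt_pos.2 (div_pos (hr x) (h.G0 x))
  exact intervalIntegral.integral_lt_integral_of_continuousOn_of_le_of_exists_lt zero_lt_one
    ((hT t ht).mul hW).continuousOn ((hT t' ht').mul hW).continuousOn (fun x _ => (hp x).le)
    ⟨0, left_mem_Icc.2 zero_le_one, hp 0⟩

end Vale.Agent.P205
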