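import Vale.Agent.P205.Base

namespace Vale.Agent.P205

open Set

/-- latitude function -/
noncomputable def tt (t σ x : ℝ) : ℝ := t + σ * Real.sin (2 * Real.pi * x)

/-- radicand of the speed -/
noncomputable def rad (D G k : ℝ → ℝ) (ε σ x : ℝ) : ℝ :=
  D x - ε * (k x + G x * (σ * (Real.cos (2 * Real.pi * x) * (2 * Real.pi))) ^ 2)

/-- speed -/
noncomputable def ww (D G k : ℝ → ℝ) (ε σ x : ℝ) : ℝ := √(rad D G k ε σ x / G x)

noncomputable def I1 (D G k : ℝ → ℝ) (ε t σ : ℝ) : ℝ :=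
  ∫ x in (0 : ℝ)..1, Real.tan (tt t σ x) * ww D G k ε σ x

noncomputable def I2 (D G k : ℝ → ℝ) (ε t σ : ℝ) : ℝ :=
  ∫ x in (0 : ℝ)..1, ww D G k ε σ x / Real.tan (tt t σ x)

/-- standing assumptions -/
structure Dat (D G k : ℝ → ℝ) : Prop where
  cD : Continuous D
  cG : Continuous G
  ck : Continuous k
  pD : Function.Periodic D 1
  pG : Function.Periodic G 1
  pk : Function.Periodic k 1
  D0 : ∀ x, 0 < D x
  G0 : ∀ x, 0 < G x
  k0 : ∀ x, 0 ≤ k x

end Vale.Agent.P205
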