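import Vale.Agent.P205.Main

namespace Vale.Agent.P205

open scoped ContDiff

theorem main_form (g : ℝ × ℝ → (ℝ × ℝ) → (ℝ × ℝ) → ℝ)
    (hlin : ∀ p w, IsLinearMap ℝ fun v => g p v w)
    (hsymm : ∀ p v w, g p v w = g p w v) (hpos : ∀ p v, v ≠ 0 → 0 < g p v v)
    (hs : ∀ v w, ContDiff ℝ ∞ fun p => g p v w)
    (hper : ∀ x y, g (x + 1, y) = g (x, y)) (hinv : ∀ x y t, g (x, y + t) = g (x, y)) :
    ∃ Φ : ℝ × ℝ → EuclideanSpace ℝ (Fin 4), ContDiff ℝ ∞ Φ ∧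
      (∀ x y, Φ (x + 1, y) = Φ (x, y)) ∧ (∀ x y, Φ (x, y + 1) = Φ (x, y)) ∧
      ∀ p v w : ℝ × ℝ, inner ℝ (fderiv ℝ Φ p v) (fderiv ℝ Φ p w) = g p v w := by
  have h1 : ∀ p (v w : ℝ × ℝ), g p v w = v.1 * g p (1, 0) w + v.2 * g p (0, 1) w := by
    intro p v w
    have e : v = v.1 • ((1, 0) : ℝ × ℝ) + v.2 • ((0, 1) : ℝ × ℝ) := by ext <;> simp
    conv_lhs => rw [e]
    rw [(hlin p w).map_add, (hlin p w).map_smul, (hlin p w).map_smul]
    rfl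
  have h2 : ∀ p (v w : ℝ × ℝ), g p v w = g p (1, 0) (1, 0) * (v.1 * w.1) +
      g p (1, 0) (0, 1) * (v.1 * w.2 + v.2 * w.1) + g p (0, 1) (0, 1) * (v.2 * w.2) := by
    intro p v w
    rw [h1 p v w, hsymm p (1, 0) w, hsymm p (0, 1) w, h1 p w (1, 0), h1 p w (0, 1),
      hsymm p (0, 1) (1, 0)]
    ring
  have h3 : ∀ p : ℝ × ℝ, g p = g (p.1, 0) := fun p => by
    rw [← hinv p.1 0 p.2, zero_add]
  have sx : ContDiff ℝ ∞ fun x : ℝ => ((x, 0) : ℝ × ℝ) := by fun_prop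
  have hG : ∀ x : ℝ, 0 < g (x, 0) (0, 1) (0, 1) := fun x => hpos _ _ (by simp)
  obtain ⟨Φ, a, b, c, d⟩ := main (E := fun x => g (x, 0) (1, 0) (1, 0))
    (F := fun x => g (x, 0) (1, 0) (0, 1)) (G := fun x => g (x, 0) (0, 1) (0, 1))
    ((hs _ _).comp sx) ((hs _ _).comp sx) ((hs _ _).comp sx)
    (fun x => by simp only [hper]) (fun x => by simp only [hper]) (fun x => by simp only [hper])
    hG (fun x => by
      have h4 := hpos (x, 0) (g (x, 0) (0, 1) (0, 1), -g (x, 0) (1, 0) (0, 1))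
        (fun h => (hG x).ne' (congrArg Prod.fst h))
      rw [h2] at h4
      have h5 := hG x
      by_contra h6
      push Not at h6
      nlinarith [mul_le_mul_of_nonneg_left h6 h5.le])
  exact ⟨Φ, a, b, c, fun p v w => by rw [d, h3 p, h2 (p.1, 0) v w]⟩

end Vale.Agent.P205
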