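import Vale.Agent.P205.Close

namespace Vale.Agent.P205

open Set
open scoped ContDiff

theorem fst_fderiv {f : ℝ → ℝ} {d : ℝ} {p : ℝ × ℝ} (h : HasDerivAt f d p.1) :
    HasFDerivAt (fun q : ℝ × ℝ => f q.1) (d • ContinuousLinearMap.fst ℝ ℝ ℝ) p :=
  h.comp_hasFDerivAt p hasFDerivAt_fst

theorem alg {E F G G' g M C S T w v1 v2 w1 w2 : ℝ} (hG : 0 < G) (hg : g ^ 2 = G) (hg0 : 0 < g)
    (hM : 0 < M) (hC : 0 < C) (hS : 0 < S) (hCS : S ^ 2 + C ^ 2 = 1)
    (hw : w ^ 2 = (E - F ^ 2 / G - 1 / M ^ 2 * (G' ^ 2 / (4 * G) + G * T ^ 2)) / G) :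
    (G' / (2 * g) / M * C + g / M * (-S * T)) * v1 * ((G' / (2 * g) / M * C + g / M * (-S * T)) * w1) +
      (g / M * C) ^ 2 * (M * (v2 + (F / G - S / C * w) * v1) * (M * (w2 + (F / G - S / C * w) * w1))) +
      (G' / (2 * g) / M * S + g / M * (C * T)) * v1 * ((G' / (2 * g) / M * S + g / M * (C * T)) * w1) +
      (g / M * S) ^ 2 * (M * (v2 + (F / G + w / (S / C)) * v1) * (M * (w2 + (F / G + w / (S / C)) * w1))) =
      E * (v1 * w1) + F * (v1 * w2 + v2 * w1) + G * (v2 * w2) := by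
  set h := F / G with hh
  set y := G' / (2 * g) / M with hy
  set z := g / M with hz
  have e0 : z * M = g := by rw [hz]; field_simp
  have e1 : C * (S / C * w) = S * w := by field_simp
  have e2 : S * (w / (S / C)) = C * w := by field_simp
  have e3 : G * h = F := by rw [hh]; field_simp
  have e4 : y ^ 2 + z ^ 2 * T ^ 2 + G * w ^ 2 + G * h ^ 2 = E := by
    rw [hw, hy, hz, hh, div_pow, div_pow, div_pow, mul_pow, hg]
    field_simp
    ring
  have a1 : (z * C) ^ 2 * (M * (v2 + (h - S / C * w) * v1) * (M * (w2 + (h - S / C * w) * w1))) =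
      G * ((C * v2 + (C * h - S * w) * v1) * (C * w2 + (C * h - S * w) * w1)) := by
    rw [← hg, ← e0, ← e1]; ring
  have a2 : (z * S) ^ 2 * (M * (v2 + (h + w / (S / C)) * v1) * (M * (w2 + (h + w / (S / C)) * w1))) =
      G * ((S * v2 + (S * h + C * w) * v1) * (S * w2 + (S * h + C * w) * w1)) := by
    rw [← hg, ← e0, ← e2]; ring
  rw [a1, a2, ← e4, ← e3]
  linear_combination ((y ^ 2 + z ^ 2 * T ^ 2 + G * w ^ 2 + G * h ^ 2) * (v1 * w1) +
    G * h * (v1 * w2 + v2 * w1) + G * (v2 * w2)) * hCS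

theorem main {E F G : ℝ → ℝ} (sE : ContDiff ℝ ∞ E) (sF : ContDiff ℝ ∞ F) (sG : ContDiff ℝ ∞ G)
    (pE : Function.Periodic E 1) (pF : Function.Periodic F 1) (pG : Function.Periodic G 1)
    (hG : ∀ x, 0 < G x) (hD : ∀ x, F x ^ 2 < E x * G x) :
    ∃ Φ : ℝ × ℝ → EuclideanSpace ℝ (Fin 4), ContDiff ℝ ∞ Φ ∧
      (∀ x y, Φ (x + 1, y) = Φ (x, y)) ∧ (∀ x y, Φ (x, y + 1) = Φ (x, y)) ∧
      ∀ p v w : ℝ × ℝ, inner ℝ (fderiv ℝ Φ p v) (fderiv ℝ Φ p w) =
        E p.1 * (v.1 * w.1) + F p.1 * (v.1 * w.2 + v.2 * w.1) + G p.1 * (v.2 * w.2) := by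
  have hG' : ∀ x, G x ≠ 0 := fun x => (hG x).ne'
  have sG' : ContDiff ℝ ∞ (deriv G) := (contDiff_infty_iff_deriv.1 sG).2
  have pG' : Function.Periodic (deriv G) 1 := by
    intro x
    have : (fun y => G (y + 1)) = G := funext pG
    rw [← deriv_comp_add_const, this]
  set D : ℝ → ℝ := fun x => E x - F x ^ 2 / G x with hDd
  set k : ℝ → ℝ := fun x => deriv G x ^ 2 / (4 * G x) with hkd
  have sD : ContDiff ℝ ∞ D := sE.sub ((sF.pow 2).div sG hG')
  have sk : ContDiff ℝ ∞ k := (sG'.pow 2).div (contDiff_const.mul sG)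
    fun x => mul_ne_zero (by norm_num) (hG' x)
  have dat : Dat D G k :=
    ⟨sD.continuous, sG.continuous, sk.continuous, fun x => by simp only [hDd, pE x, pF x, pG x],
      pG, fun x => by simp only [hkd, pG' x, pG x],
      fun x => sub_pos.2 ((div_lt_iff₀ (hG x)).2 (hD x)), hG,
      fun x => div_nonneg (sq_nonneg _) (by linarith [hG x])⟩
  obtain ⟨N, hN, t, σ, hT, hr, ⟨j, hj⟩, ⟨j', hj'⟩⟩ := close dat (∫ x in (0 : ℝ)..1, F x / G x)
  set M : ℝ := 2 * Real.pi * N with hM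
  have hM0 : 0 < M := by
    have := Real.pi_pos
    have : (0 : ℝ) < N := by exact_mod_cast hN
    positivity
  have hC : ∀ x, 0 < Real.cos (tt t σ x) := fun x =>
    Real.cos_pos_of_mem_Ioo ⟨by linarith [(hT x).1, Real.pi_pos], (hT x).2⟩
  have hS : ∀ x, 0 < Real.sin (tt t σ x) := fun x =>
    Real.sin_pos_of_pos_of_lt_pi (hT x).1 (by linarith [(hT x).2, Real.pi_pos])
  have sT : ContDiff ℝ ∞ (tt t σ) := by unfold tt; fun_prop
  have pT : Function.Periodic (tt t σ) 1 := fun x => by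
    simp only [tt, mul_add, mul_one, Real.sin_add_two_pi]
  have dT : ∀ x, HasDerivAt (tt t σ) (σ * (Real.cos (2 * Real.pi * x) * (2 * Real.pi))) x := by
    intro x
    have h1 : HasDerivAt (fun x : ℝ => 2 * Real.pi * x) (2 * Real.pi) x := by
      simpa using (hasDerivAt_id x).const_mul (2 * Real.pi)
    exact (h1.sin.const_mul σ).const_add t
  set W : ℝ → ℝ := ww D G k (1 / M ^ 2) σ with hW
  have srad : ContDiff ℝ ∞ (rad D G k (1 / M ^ 2) σ) := by unfold rad; fun_prop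
  have sW : ContDiff ℝ ∞ W :=
    (srad.div sG hG').sqrt fun x => (div_pos (hr x) (hG x)).ne'
  have pW : Function.Periodic W 1 := fun x => by
    simp only [hW, ww, rad, dat.pD x, dat.pk x, pG x, mul_add, mul_one, Real.cos_add_two_pi]
  have stan : ContDiff ℝ ∞ fun x => Real.tan (tt t σ x) := by
    simp only [Real.tan_eq_sin_div_cos]
    exact sT.sin.div sT.cos fun x => (hC x).ne'
  have htan : ∀ x, Real.tan (tt t σ x) ≠ 0 := fun x => by
    rw [Real.tan_eq_sin_div_cos]; exact (div_pos (hS x) (hC x)).ne'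
  have sH : ContDiff ℝ ∞ fun x => F x / G x := sF.div sG hG'
  have s1 : ContDiff ℝ ∞ fun x => Real.tan (tt t σ x) * W x := stan.mul sW
  have s2 : ContDiff ℝ ∞ fun x => W x / Real.tan (tt t σ x) := sW.div stan htan
  set A : ℝ → ℝ := fun x => F x / G x - Real.tan (tt t σ x) * W x with hA
  set B : ℝ → ℝ := fun x => F x / G x + W x / Real.tan (tt t σ x) with hB
  have sA : ContDiff ℝ ∞ A := sH.sub s1
  have sB : ContDiff ℝ ∞ B := sH.add s2
  have pA : Function.Periodic A 1 := fun x => by simp only [hA, pF x, pG x, pT x, pW x]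
  have pB : Function.Periodic B 1 := fun x => by simp only [hB, pF x, pG x, pT x, pW x]
  have iA : M * ∫ x in (0 : ℝ)..1, A x = j * (2 * Real.pi) := by
    rw [hA, intervalIntegral.integral_sub (sH.continuous.intervalIntegrable _ _)
      (s1.continuous.intervalIntegrable _ _), ← hj, hM]
    simp only [I1, hW, hM]
    ring
  have iB : M * ∫ x in (0 : ℝ)..1, B x = j' * (2 * Real.pi) := by
    rw [hB, intervalIntegral.integral_add (sH.continuous.intervalIntegrable _ _)
      (s2.continuous.intervalIntegrable _ _), ← hj', hM]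
    simp only [I2, hW, hM]
    ring
  have sρ : ContDiff ℝ ∞ fun x => √(G x) / M := (sG.sqrt hG').div_const M
  have sm : ContDiff ℝ ∞ (pol (fun p => √(G p.1) / M * Real.cos (tt t σ p.1))
      (fun p => M * (p.2 + ∫ x in (0 : ℝ)..p.1, A x))
      (fun p => √(G p.1) / M * Real.sin (tt t σ p.1))
      (fun p => M * (p.2 + ∫ x in (0 : ℝ)..p.1, B x))) :=
    pol_smooth ((sρ.mul sT.cos).comp contDiff_fst)
      (contDiff_const.mul (contDiff_snd.add ((prim_smooth sA).comp contDiff_fst)))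
      ((sρ.mul sT.sin).comp contDiff_fst)
      (contDiff_const.mul (contDiff_snd.add ((prim_smooth sB).comp contDiff_fst)))
  refine ⟨_, sm, fun x y => ?_, fun x y => ?_, fun p v w => ?_⟩
  · have e1 : M * (y + ∫ u in (0 : ℝ)..(x + 1), A u) =
        M * (y + ∫ u in (0 : ℝ)..x, A u) + j * (2 * Real.pi) := by
      rw [prim_add_one sA.continuous pA, ← iA]; ring
    have e2 : M * (y + ∫ u in (0 : ℝ)..(x + 1), B u) =
        M * (y + ∫ u in (0 : ℝ)..x, B u) + j' * (2 * Real.pi) := by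
      rw [prim_add_one sB.continuous pB, ← iB]; ring
    simp only [pol, e1, e2, pG x, pT x, Real.cos_add_int_mul_two_pi, Real.sin_add_int_mul_two_pi]
  · have e1 : ∀ z : ℝ, M * (y + 1 + z) = M * (y + z) + N * (2 * Real.pi) := fun z => by
      rw [hM]; ring
    simp only [pol, e1, Real.cos_add_nat_mul_two_pi, Real.sin_add_nat_mul_two_pi]
  · have dG : HasDerivAt G (deriv G p.1) p.1 :=
      (sG.differentiable (by simp) p.1).hasDerivAt
    have dρ := (dG.sqrt (hG' p.1)).div_const M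
    have d1 := fst_fderiv (dρ.mul (dT p.1).cos)
    have d2 := fst_fderiv (dρ.mul (dT p.1).sin)
    have d3 := ((hasFDerivAt_snd (𝕜 := ℝ) (p := p)).add
      (fst_fderiv (prim_deriv sA.continuous p.1))).const_mul M
    have d4 := ((hasFDerivAt_snd (𝕜 := ℝ) (p := p)).add
      (fst_fderiv (prim_deriv sB.continuous p.1))).const_mul M
    rw [pol_inner sm d1 d3 d2 d4]
    simp only [add_apply, smul_apply, smul_eq_mul, ContinuousLinearMap.coe_fst',
      ContinuousLinearMap.coe_snd', hA, hB, Real.tan_eq_sin_div_cos]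
    exact alg (hG p.1) (Real.sq_sqrt (hG p.1).le) (Real.sqrt_pos.2 (hG p.1)) hM0 (hC p.1) (hS p.1)
      (Real.sin_sq_add_cos_sq _) (Real.sq_sqrt (div_pos (hr p.1) (hG p.1)).le)

end Vale.Agent.P205
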