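import Vale.Agent.P205.Defs

namespace Vale.Agent.P205

open Set

theorem topo {f g : ℝ → ℝ → ℝ} {α β s p q : ℝ} (hαβ : α ≤ β) (hs : 0 ≤ s)
    (hf : ContinuousOn (fun z : ℝ × ℝ => f z.1 z.2) (Icc α β ×ˢ Icc 0 s))
    (hg : ContinuousOn (fun z : ℝ × ℝ => g z.1 z.2) (Icc α β ×ˢ Icc 0 s))
    (hm : ∀ σ ∈ Icc 0 s, StrictMonoOn (fun t => f t σ) (Icc α β))
    (ha : ∀ σ ∈ Icc 0 s, f α σ ≤ p) (hb : ∀ σ ∈ Icc 0 s, p ≤ f β σ)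
    (h0 : ∀ t ∈ Icc α β, f t 0 = p → g t 0 ≤ q) (h1 : ∀ t ∈ Icc α β, f t s = p → q ≤ g t s) :
    ∃ t ∈ Icc α β, ∃ σ ∈ Icc 0 s, f t σ = p ∧ g t σ = q := by
  have hR : IsCompact (Icc α β ×ˢ Icc (0 : ℝ) s) := isCompact_Icc.prod isCompact_Icc
  have hcl : ∀ C : Set ℝ, IsClosed C → IsClosed (Prod.snd ''
      ((Icc α β ×ˢ Icc (0 : ℝ) s) ∩ (fun z : ℝ × ℝ => (f z.1 z.2, g z.1 z.2)) ⁻¹'
        ({p} ×ˢ C))) := by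
    intro C hC
    have h1 : IsClosed ((Icc α β ×ˢ Icc (0 : ℝ) s) ∩
        (fun z : ℝ × ℝ => (f z.1 z.2, g z.1 z.2)) ⁻¹' ({p} ×ˢ C)) :=
      (hf.prodMk hg).preimage_isClosed_of_isClosed hR.isClosed (isClosed_singleton.prod hC)
    exact ((hR.of_isClosed_subset h1 inter_subset_left).image continuous_snd).isClosed
  have ivt : ∀ σ ∈ Icc (0 : ℝ) s, ∃ t ∈ Icc α β, f t σ = p := by
    intro σ hσ
    have hc : ContinuousOn (fun t => f t σ) (Icc α β) :=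
      hf.comp (f := fun t : ℝ => (t, σ)) (by fun_prop) fun t ht => ⟨ht, hσ⟩
    exact intermediate_value_Icc hαβ hc ⟨ha σ hσ, hb σ hσ⟩
  have key := isPreconnected_closed_iff.mp (isPreconnected_Icc (a := (0 : ℝ)) (b := s)) _ _
    (hcl (Iic q) isClosed_Iic) (hcl (Ici q) isClosed_Ici)
    (by
      intro σ hσ
      obtain ⟨t, ht, hft⟩ := ivt σ hσ
      rcases le_total (g t σ) q with h | h
      · exact Or.inl ⟨(t, σ), ⟨⟨ht, hσ⟩, hft, h⟩, rfl⟩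
      · exact Or.inr ⟨(t, σ), ⟨⟨ht, hσ⟩, hft, h⟩, rfl⟩)
    (by
      have hσ : (0 : ℝ) ∈ Icc (0 : ℝ) s := ⟨le_rfl, hs⟩
      obtain ⟨t, ht, hft⟩ := ivt 0 hσ
      exact ⟨0, hσ, (t, 0), ⟨⟨ht, hσ⟩, hft, h0 t ht hft⟩, rfl⟩)
    (by
      have hσ : s ∈ Icc (0 : ℝ) s := ⟨hs, le_rfl⟩
      obtain ⟨t, ht, hft⟩ := ivt s hσ
      exact ⟨s, hσ, (t, s), ⟨⟨ht, hσ⟩, hft, h1 t ht hft⟩, rfl⟩)
  obtain ⟨σ, hσ, ⟨⟨t, σ1⟩, ⟨⟨ht, -⟩, hft, hg1⟩, rfl⟩, ⟨⟨t', σ2⟩, ⟨⟨ht', -⟩, hft', hg2⟩, e⟩⟩ := key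
  simp only at e hσ ht ht'
  subst e
  have e1 : f t σ2 = p := hft
  have e2 : f t' σ2 = p := hft'
  have e3 : t = t' := (hm σ2 hσ).injOn ht ht' (e1.trans e2.symm)
  subst e3
  exact ⟨t, ht, σ2, hσ, e1, le_antisymm hg1 hg2⟩

end Vale.Agent.P205
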